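import Mathlib

/-! R6 (helper175): pigeonhole for eigenspaces inside an invariant subspace. -/

set_option autoImplicit false

namespace Vale.Agent.P181.FR

theorem pig_step {M : Type*} [AddCommGroup M] [Module ℂ M] [Module.Finite ℂ M]
    (E : Submodule ℂ M) (S T : M →ₗ[ℂ] M) (hS : ∀ x ∈ E, S x ∈ E) :
    Module.finrank ℂ ↥(E ⊓ LinearMap.ker (T ∘ₗ S)) ≤
      Module.finrank ℂ ↥(E ⊓ LinearMap.ker S) + Module.finrank ℂ ↥(E ⊓ LinearMap.ker T) := by
  let f : ↥(E ⊓ LinearMap.ker (T ∘ₗ S)) →ₗ[ℂ] ↥(E ⊓ LinearMap.ker T) :=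
    LinearMap.codRestrict _ (S ∘ₗ (E ⊓ LinearMap.ker (T ∘ₗ S)).subtype) (fun x => by
      refine ⟨hS _ x.2.1, ?_⟩
      have := x.2.2
      exact this)
  have h1 := LinearMap.finrank_range_add_finrank_ker f
  have h2 : Module.finrank ℂ ↥(LinearMap.range f) ≤ Module.finrank ℂ ↥(E ⊓ LinearMap.ker T) :=
    Submodule.finrank_le _
  have h3 : Module.finrank ℂ ↥(LinearMap.ker f) ≤ Module.finrank ℂ ↥(E ⊓ LinearMap.ker S) := by
    let g : ↥(LinearMap.ker f) →ₗ[ℂ] ↥(E ⊓ LinearMap.ker S) :=
      LinearMap.codRestrict _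
        ((E ⊓ LinearMap.ker (T ∘ₗ S)).subtype ∘ₗ (LinearMap.ker f).subtype) (fun x => by
          refine ⟨x.1.2.1, ?_⟩
          have hx : f x.1 = 0 := x.2
          have := congrArg Subtype.val hx
          exact this)
    refine LinearMap.finrank_le_finrank_of_injective (f := g) ?_
    intro x y hxy
    have := congrArg Subtype.val hxy
    exact Subtype.ext (Subtype.ext this)
  omega

/-- R6 -/
theorem pig {M : Type*} [AddCommGroup M] [Module ℂ M] [Module.Finite ℂ M] (E : Submodule ℂ M)
    (T : M →ₗ[ℂ] M) (hT : ∀ x ∈ E, T x ∈ E) {N : ℕ} (hN : 0 < N) (c : ℕ → ℂ)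
    (h : ∀ x ∈ E, Polynomial.aeval T
      (∏ k ∈ Finset.range N, (Polynomial.X - Polynomial.C (c k))) x = 0) :
    ∃ k < N, Module.finrank ℂ E ≤
      N * Module.finrank ℂ ↥(E ⊓ LinearMap.ker (T - c k • LinearMap.id)) := by
  have hfac : ∀ a : ℂ, Polynomial.aeval T (Polynomial.X - Polynomial.C a) =
      T - a • LinearMap.id := by
    intro a
    rw [map_sub, Polynomial.aeval_X, Polynomial.aeval_C]
    rfl
  have hinv : ∀ j : ℕ, ∀ x ∈ E, Polynomial.aeval T
      (∏ k ∈ Finset.range j, (Polynomial.X - Polynomial.C (c k))) x ∈ E := by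
    intro j
    induction j with
    | zero => intro x hx; simpa using hx
    | succ j ih =>
      intro x hx
      rw [Finset.prod_range_succ, mul_comm, map_mul, Module.End.mul_apply, hfac]
      have h1 := ih x hx
      rw [LinearMap.sub_apply]
      exact E.sub_mem (hT _ h1) (E.smul_mem _ h1)
  have hsum : ∀ j : ℕ, Module.finrank ℂ ↥(E ⊓ LinearMap.ker (Polynomial.aeval T
      (∏ k ∈ Finset.range j, (Polynomial.X - Polynomial.C (c k))))) ≤
      ∑ k ∈ Finset.range j, Module.finrank ℂ ↥(E ⊓ LinearMap.ker (T - c k • LinearMap.id)) := by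
    intro j
    induction j with
    | zero =>
      have : E ⊓ LinearMap.ker (Polynomial.aeval T
          (∏ k ∈ Finset.range 0, (Polynomial.X - Polynomial.C (c k)))) = ⊥ := by
        rw [Finset.range_zero, Finset.prod_empty, map_one]
        rw [eq_bot_iff]
        rintro x ⟨-, hx⟩
        exact hx
      rw [this]
      simp
    | succ j ih =>
      rw [Finset.sum_range_succ, Finset.prod_range_succ, mul_comm, map_mul, hfac]
      refine (pig_step E _ (T - c j • LinearMap.id) (hinv j)).trans ?_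
      omega
  have htop : E ⊓ LinearMap.ker (Polynomial.aeval T
      (∏ k ∈ Finset.range N, (Polynomial.X - Polynomial.C (c k)))) = E := by
    rw [inf_eq_left]
    intro x hx
    exact h x hx
  have hN' := hsum N
  rw [htop] at hN'
  by_contra hcon
  push Not at hcon
  have h5 : N * ∑ k ∈ Finset.range N,
      Module.finrank ℂ ↥(E ⊓ LinearMap.ker (T - c k • LinearMap.id)) <
      ∑ _k ∈ Finset.range N, Module.finrank ℂ E := by
    rw [Finset.mul_sum]
    exact Finset.sum_lt_sum_of_nonempty (Finset.nonempty_range_iff.2 hN.ne')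
      (fun k hk => hcon k (Finset.mem_range.1 hk))
  rw [Finset.sum_const, Finset.card_range, smul_eq_mul] at h5
  have h6 := Nat.lt_of_mul_lt_mul_left h5
  omega

end Vale.Agent.P181.FR
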